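import Vale.Agent.H2.P064.Gen
import Vale.Agent.H2.P064.T5

/-! P064: the gap in the second Kahn–Kalai problem is at most `log² n` times iterated logarithms. -/

namespace Vale.Agent.Results.P064.LogSquared

open Finset Classical

/-- The probability that `G(n,p)` is equal to the graph `G` on `n` vertices. -/
noncomputable def weight (n : ℕ) (p : ℝ) (G : SimpleGraph (Fin n)) : ℝ :=
  p ^ G.edgeFinset.card * (1 - p) ^ (n.choose 2 - G.edgeFinset.card)

/-- The probability that `G(n,p)` contains a copy of `H`, i.e. `Pr(N(G(n,p),H) > 0)`, where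
`N(G,F) = G.copyCount F` is the number of subgraphs of `G` isomorphic to `F`. -/
noncomputable def probContains (n : ℕ) (p : ℝ) {V : Type} (H : SimpleGraph V) : ℝ :=
  ∑ G ∈ univ.filter (fun G : SimpleGraph (Fin n) => 0 < G.copyCount H), weight n p G

/-- The expected number of copies of `F` in `G(n,p)`. -/
noncomputable def expCopies (n : ℕ) (p : ℝ) {V : Type} (F : SimpleGraph V) : ℝ :=
  ∑ G : SimpleGraph (Fin n), weight n p G * (G.copyCount F : ℝ)

/-- The `p ∈ [0,1]` such that `Pr(N(G(n,p),H) > 0) ≥ 1/2`. -/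
def setC (n : ℕ) {V : Type} (H : SimpleGraph V) : Set ℝ :=
  {p | 0 ≤ p ∧ p ≤ 1 ∧ 1 / 2 ≤ probContains n p H}

/-- The `p ∈ [0,1]` such that `E N(G(n,p),F) ≥ 1/2` for every subgraph `F` of `H`. -/
def setE (n : ℕ) {V : Type} (H : SimpleGraph V) : Set ℝ :=
  {p | 0 ≤ p ∧ p ≤ 1 ∧ ∀ F : H.Subgraph, 1 / 2 ≤ expCopies n p F.coe}

/-- The threshold `p_c(n,H)`. -/
noncomputable def pc (n : ℕ) {V : Type} (H : SimpleGraph V) : ℝ := sInf (setC n H)

/-- The expectation threshold `p_E(n,H)`. -/
noncomputable def pE (n : ℕ) {V : Type} (H : SimpleGraph V) : ℝ := sInf (setE n H)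

theorem weight_eq (n : ℕ) (p : ℝ) (G : SimpleGraph (Fin n)) :
    weight n p G = Vale.Agent.H2.P064.gw n p G := rfl

theorem probContains_eq (n : ℕ) (p : ℝ) {V : Type} (H : SimpleGraph V) :
    probContains n p H = Vale.Agent.H2.P064.gprob n p (fun G => 0 < G.copyCount H) := by
  unfold probContains Vale.Agent.H2.P064.gprob
  exact Finset.sum_congr (by ext G; simp) (fun G _ => weight_eq n p G)

theorem expCopies_eq (n : ℕ) (p : ℝ) {V : Type} (F : SimpleGraph V) :
    expCopies n p F = Vale.Agent.H2.P064.gexp n p F := by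
  unfold expCopies Vale.Agent.H2.P064.gexp
  exact Finset.sum_congr rfl (fun G _ => by rw [weight_eq n p G])

theorem setC_eq (n : ℕ) {V : Type} (H : SimpleGraph V) :
    setC n H = Vale.Agent.H2.P064.pcSet n H := by
  ext p
  unfold setC Vale.Agent.H2.P064.pcSet
  simp only [Set.mem_setOf_eq, probContains_eq]

theorem setE_eq (n : ℕ) {V : Type} (H : SimpleGraph V) :
    setE n H = Vale.Agent.H2.P064.pESet n H := by
  ext p
  unfold setE Vale.Agent.H2.P064.pESet
  simp only [Set.mem_setOf_eq, expCopies_eq]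

theorem pc_eq (n : ℕ) {V : Type} (H : SimpleGraph V) :
    pc n H = Vale.Agent.H2.P064.pc n H := by
  unfold pc Vale.Agent.H2.P064.pc
  rw [setC_eq]

theorem pE_eq (n : ℕ) {V : Type} (H : SimpleGraph V) :
    pE n H = Vale.Agent.H2.P064.pE n H := by
  unfold pE Vale.Agent.H2.P064.pE
  rw [setE_eq]

theorem setE_isLeast (n : ℕ) {V : Type} [Fintype V] (H : SimpleGraph V)
    (hV : Fintype.card V ≤ n) : IsLeast (setE n H) (pE n H) := by
  have h1 : IsClosed (setE n H) := by
    rw [setE_eq]; exact Vale.Agent.H2.P064.pESet_closed n H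
  have h2 : (1 : ℝ) ∈ setE n H := by
    rw [setE_eq]; exact Vale.Agent.H2.P064.one_mem_pESet n H hV
  have h3 : BddBelow (setE n H) := ⟨0, fun p hp => hp.1⟩
  exact ⟨h1.csInf_mem ⟨1, h2⟩ h3, fun p hp => csInf_le h3 hp⟩

theorem setC_isLeast (n : ℕ) {V : Type} [Fintype V] (H : SimpleGraph V)
    (hV : Fintype.card V ≤ n) : IsLeast (setC n H) (pc n H) := by
  have h1 : IsClosed (setC n H) := by
    have e : setC n H = {p | 0 ≤ p} ∩ ({p | p ≤ 1} ∩ {p : ℝ | 1 / 2 ≤ probContains n p H}) := by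
      ext p
      simp [setC]
    rw [e]
    refine IsClosed.inter (isClosed_le continuous_const continuous_id)
      (IsClosed.inter (isClosed_le continuous_id continuous_const)
        (isClosed_le continuous_const ?_))
    unfold probContains weight
    fun_prop
  have h2 : (1 : ℝ) ∈ setC n H := by
    refine ⟨zero_le_one, le_rfl, ?_⟩
    have hcard : Fintype.card V ≤ Fintype.card (Fin n) := by rw [Fintype.card_fin]; exact hV
    obtain ⟨ι⟩ := Function.Embedding.nonempty_of_card_le hcard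
    rw [probContains_eq, Vale.Agent.H2.P064.gprob_eq ι H 1]
    have := Vale.Agent.H2.P064.pr_one (X := Vale.Agent.H2.P064.EX n)
      (fun W => ∃ g, Vale.Agent.H2.P064.im (Vale.Agent.H2.P064.act n) g
        (Vale.Agent.H2.P064.edg ι H) ⊆ W) ⟨1, Finset.subset_univ _⟩
    linarith
  have h3 : BddBelow (setC n H) := ⟨0, fun p hp => hp.1⟩
  exact ⟨h1.csInf_mem ⟨1, h2⟩ h3, fun p hp => csInf_le h3 hp⟩

/-- There is a universal constant `C` such that for all `n ≥ 2` and all graphs `H` with at least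
one edge and at most `n` vertices,
`p_c(n,H) ≤ C p_E(n,H) (log n)² (1 + log log n) (1 + log (1 + log log n))²`. -/
theorem result : ∃ C : ℝ, 0 < C ∧ ∀ n : ℕ, 2 ≤ n → ∀ (V : Type) [Fintype V] (H : SimpleGraph V),
    H ≠ ⊥ → Fintype.card V ≤ n →
    IsLeast (setC n H) (pc n H) ∧ IsLeast (setE n H) (pE n H) ∧
    pc n H ≤ C * pE n H * Real.log n ^ 2 * (1 + Real.log (Real.log n)) *
      (1 + Real.log (1 + Real.log (Real.log n))) ^ 2 := by
  obtain ⟨K, hK, h⟩ := Vale.Agent.H2.P064.graph_of_spread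
  refine ⟨K * 10 ^ 10, by positivity, ?_⟩
  intro n hn V _ H hH hV
  refine ⟨setC_isLeast n H hV, setE_isLeast n H hV, ?_⟩
  have h1 := h n hn V H hH hV (10 ^ 10 * Vale.Agent.H2.P064.Lam n)
    (Vale.Agent.H2.P064.Lam_pos n hn)
    (fun ι q hq _ hyp => Vale.Agent.H2.P064.spread_general n hn _ q hq hyp)
  rw [pc_eq, pE_eq]
  refine h1.trans (le_of_eq ?_)
  unfold Vale.Agent.H2.P064.Lam
  ring

end Vale.Agent.Results.P064.LogSquared
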